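import Vale.Agent.P079.Final

theorem Vale.Agent.Results.P079.KirkReflexive.result
    (X : Type*) [NormedAddCommGroup X] [NormedSpace ℝ X] [CompleteSpace X]
    (hX : ∀ φ : (X →L[ℝ] ℝ) →L[ℝ] ℝ, ∃ x : X, ∀ f : X →L[ℝ] ℝ, φ f = f x)
    (C : Set X) (hne : C.Nonempty) (hcl : IsClosed C)
    (hbd : ∃ R : ℝ, ∀ x ∈ C, ‖x‖ ≤ R)
    (hcv : ∀ x ∈ C, ∀ y ∈ C, ∀ t : ℝ, 0 ≤ t → t ≤ 1 → (1 - t) • x + t • y ∈ C)
    (T : X → X) (hTC : ∀ a ∈ C, T a ∈ C)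
    (hT : ∀ a ∈ C, ∀ b ∈ C, ‖T a - T b‖ ≤ ‖a - b‖) :
    ∃ a ∈ C, T a = a := by
  have hX' : Function.Surjective (NormedSpace.inclusionInDoubleDual ℝ X) := by
    intro φ
    obtain ⟨x, hx⟩ := hX φ
    refine ⟨x, ?_⟩
    ext f
    rw [NormedSpace.dual_def]
    exact (hx f).symm
  have hbd' : Bornology.IsBounded C := by
    obtain ⟨R, hR⟩ := hbd
    exact isBounded_iff_forall_norm_le.2 ⟨R, hR⟩
  have hcv' : Convex ℝ C := by
    intro x hx y hy a b ha hb hab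
    have h := hcv x hx y hy b hb (by linarith)
    have : (1 : ℝ) - b = a := by linarith
    rwa [this] at h
  obtain ⟨x, hx, hfix⟩ := Vale.Agent.P079.exists_fixed_point hX' (T := T) hne hcl hbd' hcv'
    hTC hT
  exact ⟨x, hx, hfix⟩
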