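import Vale.Agent.P079.Final

theorem Vale.Agent.Results.P079.ReflexiveFPP.result
    {X : Type*} [NormedAddCommGroup X] [NormedSpace ℝ X] [CompleteSpace X]
    (hX : Function.Surjective (NormedSpace.inclusionInDoubleDual ℝ X))
    (C : Set X) (hne : C.Nonempty) (hcl : IsClosed C) (hbd : Bornology.IsBounded C)
    (hcv : Convex ℝ C) (T : C → C)
    (hT : ∀ a b : C, ‖(T a : X) - (T b : X)‖ ≤ ‖(a : X) - (b : X)‖) :
    ∃ a : C, T a = a := by
  classical
  let T' : X → X := fun x => if h : x ∈ C then (T ⟨x, h⟩ : X) else x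
  have hT' : ∀ x (h : x ∈ C), T' x = T ⟨x, h⟩ := fun x h => dif_pos h
  obtain ⟨x, hx, hfix⟩ := Vale.Agent.P079.exists_fixed_point hX (T := T') hne hcl hbd hcv
    (fun x hx => by rw [hT' x hx]; exact (T ⟨x, hx⟩).2)
    (fun x hx y hy => by rw [hT' x hx, hT' y hy]; exact hT ⟨x, hx⟩ ⟨y, hy⟩)
  exact ⟨⟨x, hx⟩, Subtype.ext (by rw [← hT' x hx]; exact hfix)⟩
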